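import Mathlib

/-!
Product weights on `Finset X`.
-/

set_option autoImplicit false
set_option linter.unusedSectionVars false

namespace Crest.Agent.SK

open Finset

variable {X : Type*} [Fintype X] [DecidableEq X]

/-- product weight of the set `A` -/
noncomputable def wt (a : ℝ) (A : Finset X) : ℝ :=
  a ^ A.card * (1 - a) ^ (Fintype.card X - A.card)

theorem wt_nonneg {a : ℝ} (h0 : 0 ≤ a) (h1 : a ≤ 1) (A : Finset X) : 0 ≤ wt a A :=
  mul_nonneg (pow_nonneg h0 _) (pow_nonneg (by linarith) _)

theorem sum_wt (a : ℝ) : ∑ A : Finset X, wt a A = 1 := by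
  unfold wt
  rw [Fintype.sum_pow_mul_eq_add_pow X a (1 - a)]
  simp

theorem wt_sdiff {a : ℝ} (h0 : 0 ≤ a) (h1 : a ≤ 1) (Z T : Finset X) (hT : T ⊆ Z) :
    wt a (Z \ T) * a ^ T.card ≤ wt a Z := by
  unfold wt
  have hc : (Z \ T).card = Z.card - T.card := card_sdiff_of_subset hT
  have hle : T.card ≤ Z.card := card_le_card hT
  have hZ : Z.card ≤ Fintype.card X := card_le_univ Z
  rw [hc]
  have e1 : Fintype.card X - (Z.card - T.card) = (Fintype.card X - Z.card) + T.card := by omega
  have e2 : a ^ Z.card = a ^ (Z.card - T.card) * a ^ T.card := by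
    rw [← pow_add]; congr 1; omega
  rw [e1, e2, pow_add]
  have h2 : (1 - a) ^ T.card ≤ 1 := pow_le_one₀ (by linarith) (by linarith)
  have h3 : 0 ≤ a ^ (Z.card - T.card) * a ^ T.card * (1 - a) ^ (Fintype.card X - Z.card) := by
    have : 0 ≤ 1 - a := by linarith
    positivity
  nlinarith

/-- union of two independent product sets. -/
theorem sum_wt_union (a b : ℝ) (f : Finset X → ℝ) :
    ∑ A : Finset X, wt a A * ∑ B : Finset X, wt b B * f (A ∪ B) =
      ∑ C : Finset X, wt (a + (1 - a) * b) C * f C := by
  classical
  have key : ∀ C : Finset X,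
      ∑ p ∈ (univ : Finset (Finset X × Finset X)).filter (fun p => p.1 ∪ p.2 = C),
        wt a p.1 * wt b p.2 = wt (a + (1 - a) * b) C := by
    intro C
    have e1 : ∑ p ∈ (univ : Finset (Finset X × Finset X)).filter (fun p => p.1 ∪ p.2 = C),
        wt a p.1 * wt b p.2 =
        ∑ A ∈ C.powerset, ∑ B' ∈ A.powerset, wt a A * wt b ((C \ A) ∪ B') := by
      rw [Finset.sum_sigma']
      refine Finset.sum_bij' (fun p _ => (⟨p.1, p.1 ∩ p.2⟩ : (_ : Finset X) × Finset X))
        (fun q _ => (q.1, (C \ q.1) ∪ q.2)) ?_ ?_ ?_ ?_ ?_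
      · intro p hp
        simp only [mem_filter, mem_univ, true_and] at hp
        simp only [mem_sigma, mem_powerset]
        exact ⟨hp ▸ subset_union_left, inter_subset_left⟩
      · intro q hq
        simp only [mem_sigma, mem_powerset] at hq
        simp only [mem_filter, mem_univ, true_and]
        ext x
        have h1 : x ∈ q.1 → x ∈ C := fun h => hq.1 h
        have h2 : x ∈ q.2 → x ∈ q.1 := fun h => hq.2 h
        simp only [mem_union, mem_sdiff]
        tauto
      · intro p hp
        simp only [mem_filter, mem_univ, true_and] at hp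
        ext x
        · rfl
        · have : x ∈ C ↔ x ∈ p.1 ∨ x ∈ p.2 := by rw [← hp]; simp
          simp only [mem_union, mem_sdiff, mem_inter]
          tauto
      · intro q hq
        simp only [mem_sigma, mem_powerset] at hq
        have : q.1 ∩ ((C \ q.1) ∪ q.2) = q.2 := by
          ext x
          have h2 : x ∈ q.2 → x ∈ q.1 := fun h => hq.2 h
          simp only [mem_inter, mem_union, mem_sdiff]
          tauto
        cases q
        simp_all
      · intro p hp
        simp only [mem_filter, mem_univ, true_and] at hp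
        have : (C \ p.1) ∪ (p.1 ∩ p.2) = p.2 := by
          ext x
          have : x ∈ C ↔ x ∈ p.1 ∨ x ∈ p.2 := by rw [← hp]; simp
          simp only [mem_union, mem_sdiff, mem_inter]
          tauto
        simp only [this]
    rw [e1]
    have hCX : C.card ≤ Fintype.card X := card_le_univ C
    have e2 : ∀ A ∈ C.powerset, ∑ B' ∈ A.powerset, wt a A * wt b ((C \ A) ∪ B') =
        ((1 - a) * (1 - b)) ^ (Fintype.card X - C.card) *
          (a ^ A.card * ((1 - a) * b) ^ (C.card - A.card)) := by
      intro A hA
      have hAC : A ⊆ C := mem_powerset.1 hA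
      have hle : A.card ≤ C.card := card_le_card hAC
      have e3 : ∀ B' ∈ A.powerset, wt a A * wt b ((C \ A) ∪ B') =
          (wt a A * b ^ (C.card - A.card) * (1 - b) ^ (Fintype.card X - C.card)) *
            (b ^ B'.card * (1 - b) ^ (A.card - B'.card)) := by
        intro B' hB'
        have hBA : B' ⊆ A := mem_powerset.1 hB'
        have hle2 : B'.card ≤ A.card := card_le_card hBA
        have hc : ((C \ A) ∪ B').card = (C.card - A.card) + B'.card := by
          rw [card_union_of_disjoint, card_sdiff_of_subset hAC]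
          rw [Finset.disjoint_left]
          intro x hx hx2
          exact (mem_sdiff.1 hx).2 (hBA hx2)
        have e4 : Fintype.card X - ((C.card - A.card) + B'.card) =
            (Fintype.card X - C.card) + (A.card - B'.card) := by omega
        unfold wt
        rw [hc, e4, pow_add, pow_add]
        ring
      rw [Finset.sum_congr rfl e3, ← Finset.mul_sum, Finset.sum_pow_mul_eq_add_pow b (1 - b) A]
      have e5 : Fintype.card X - A.card = (Fintype.card X - C.card) + (C.card - A.card) := by
        omega
      unfold wt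
      rw [e5, pow_add, mul_pow, mul_pow]
      have : b + (1 - b) = 1 := by ring
      rw [this, one_pow]
      ring
    rw [Finset.sum_congr rfl e2, ← Finset.mul_sum,
      Finset.sum_pow_mul_eq_add_pow a ((1 - a) * b) C]
    unfold wt
    have : 1 - (a + (1 - a) * b) = (1 - a) * (1 - b) := by ring
    rw [this]
    ring
  calc ∑ A : Finset X, wt a A * ∑ B : Finset X, wt b B * f (A ∪ B)
      = ∑ p : Finset X × Finset X, wt a p.1 * wt b p.2 * f (p.1 ∪ p.2) := by
        rw [Fintype.sum_prod_type]
        refine Finset.sum_congr rfl fun A _ => ?_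
        rw [Finset.mul_sum]
        refine Finset.sum_congr rfl fun B _ => ?_
        ring
    _ = ∑ C : Finset X, ∑ p ∈ (univ : Finset (Finset X × Finset X)).filter
          (fun p => p.1 ∪ p.2 = C), wt a p.1 * wt b p.2 * f (p.1 ∪ p.2) := by
        rw [← Finset.sum_fiberwise_of_maps_to (t := (univ : Finset (Finset X)))
          (g := fun p : Finset X × Finset X => p.1 ∪ p.2) (fun _ _ => mem_univ _)]
    _ = ∑ C : Finset X, wt (a + (1 - a) * b) C * f C := by
        refine Finset.sum_congr rfl fun C _ => ?_
        rw [← key C, Finset.sum_mul]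
        refine Finset.sum_congr rfl fun p hp => ?_
        rw [(mem_filter.1 hp).2]

/-- monotonicity in the density. -/
theorem sum_wt_mono {a c : ℝ} (ha0 : 0 ≤ a) (hac : a ≤ c) (hc1 : c ≤ 1) (f : Finset X → ℝ)
    (hf : ∀ A B : Finset X, A ⊆ B → f A ≤ f B) :
    ∑ A : Finset X, wt a A * f A ≤ ∑ A : Finset X, wt c A * f A := by
  rcases eq_or_lt_of_le (hac.trans hc1) with h1 | h1
  · have : a = c := by linarith
    rw [this]
  · set b : ℝ := (c - a) / (1 - a) with hb
    have h1a : 0 < 1 - a := by linarith
    have hb0 : 0 ≤ b := div_nonneg (by linarith) h1a.le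
    have hb1 : b ≤ 1 := by rw [hb, div_le_one h1a]; linarith
    have hcb : a + (1 - a) * b = c := by rw [hb]; field_simp; ring
    rw [← hcb, ← sum_wt_union a b f]
    refine Finset.sum_le_sum fun A _ => ?_
    refine mul_le_mul_of_nonneg_left ?_ (wt_nonneg ha0 h1.le A)
    calc f A = ∑ B : Finset X, wt b B * f A := by rw [← Finset.sum_mul, sum_wt, one_mul]
      _ ≤ _ := Finset.sum_le_sum fun B _ =>
        mul_le_mul_of_nonneg_left (hf _ _ subset_union_left) (wt_nonneg hb0 hb1 B)

end Crest.Agent.SK
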