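import Mathlib
import Crest.Agent.SK.Weight

/-!
The spread lemma: a `q`-spread family of sets of size at most `h` is hit by a random set of density
`16 q (1 + log₂ h)`.
-/

set_option autoImplicit false
set_option linter.unusedSectionVars false

namespace Crest.Agent.SK

open Finset

variable {X ι : Type*} [Fintype X] [DecidableEq X] [DecidableEq ι]

/-- indicator of "some member of the family lies in `A`" -/
noncomputable def hit (I : Finset ι) (T : ι → Finset X) (A : Finset X) : ℝ :=
  haveI := Classical.dec (∃ j ∈ I, T j ⊆ A)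
  if ∃ j ∈ I, T j ⊆ A then 1 else 0

theorem hit_mono (I : Finset ι) (T : ι → Finset X) (A B : Finset X) (h : A ⊆ B) :
    hit I T A ≤ hit I T B := by
  unfold hit
  by_cases h1 : ∃ j ∈ I, T j ⊆ A
  · have h2 : ∃ j ∈ I, T j ⊆ B := by
      obtain ⟨j, hj, hj2⟩ := h1
      exact ⟨j, hj, hj2.trans h⟩
    rw [if_pos h1, if_pos h2]
  · rw [if_neg h1]
    split_ifs <;> norm_num

theorem exists_frag (I : Finset ι) (T : ι → Finset X) (W : Finset X) (i : ι) (hi : i ∈ I) :
    ∃ j ∈ I, T j ⊆ W ∪ T i ∧ ∀ k ∈ I, T k ⊆ W ∪ T i → (T j \ W).card ≤ (T k \ W).card := by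
  have hne : (I.filter (fun j => T j ⊆ W ∪ T i)).Nonempty :=
    ⟨i, mem_filter.2 ⟨hi, subset_union_right⟩⟩
  obtain ⟨j, hj, hmin⟩ := exists_min_image _ (fun j => (T j \ W).card) hne
  rw [mem_filter] at hj
  exact ⟨j, hj.1, hj.2, fun k hk hk2 => hmin k (mem_filter.2 ⟨hk, hk2⟩)⟩

/-- the minimal fragment -/
noncomputable def frag (I : Finset ι) (T : ι → Finset X) (W : Finset X) (i : ι) : Finset X :=
  haveI := Classical.dec (i ∈ I)
  if hi : i ∈ I then T (exists_frag I T W i hi).choose \ W else ∅

theorem frag_spec (I : Finset ι) (T : ι → Finset X) (W : Finset X) (i : ι) (hi : i ∈ I) :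
    ∃ j ∈ I, frag I T W i = T j \ W ∧ T j ⊆ W ∪ T i ∧
      ∀ k ∈ I, T k ⊆ W ∪ T i → (T j \ W).card ≤ (T k \ W).card := by
  have h := (exists_frag I T W i hi).choose_spec
  refine ⟨_, h.1, ?_, h.2⟩
  unfold frag
  rw [dif_pos hi]

theorem frag_subset (I : Finset ι) (T : ι → Finset X) (W : Finset X) (i : ι) (hi : i ∈ I) :
    frag I T W i ⊆ T i := by
  obtain ⟨j, hj, hf, hsub, -⟩ := frag_spec I T W i hi
  rw [hf]
  intro x hx
  rw [mem_sdiff] at hx
  rcases mem_union.1 (hsub hx.1) with h | h
  · exact absurd h hx.2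
  · exact h

theorem frag_disj (I : Finset ι) (T : ι → Finset X) (W : Finset X) (i : ι) (hi : i ∈ I) :
    Disjoint W (frag I T W i) := by
  obtain ⟨j, hj, hf, -, -⟩ := frag_spec I T W i hi
  rw [hf]
  exact disjoint_sdiff

/-- canonical member inside `Z` -/
noncomputable def can (I : Finset ι) (T : ι → Finset X) (Z : Finset X) : Finset X :=
  haveI := Classical.dec (∃ j ∈ I, T j ⊆ Z)
  if h : ∃ j ∈ I, T j ⊆ Z then T h.choose else ∅

theorem can_card (I : Finset ι) (T : ι → Finset X) (m : ℕ) (hm : ∀ i ∈ I, (T i).card ≤ m)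
    (Z : Finset X) : (can I T Z).card ≤ m := by
  unfold can
  split_ifs with h
  · exact hm _ h.choose_spec.1
  · simp

theorem frag_subset_can (I : Finset ι) (T : ι → Finset X) (W : Finset X) (i : ι) (hi : i ∈ I) :
    frag I T W i ⊆ can I T (W ∪ frag I T W i) := by
  obtain ⟨j, hj, hf, hsub, hmin⟩ := frag_spec I T W i hi
  have hex : ∃ k ∈ I, T k ⊆ W ∪ frag I T W i := by
    refine ⟨j, hj, ?_⟩
    rw [hf]
    intro x hx
    by_cases hxW : x ∈ W
    · exact mem_union_left _ hxW
    · exact mem_union_right _ (mem_sdiff.2 ⟨hx, hxW⟩)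
  have hcan : can I T (W ∪ frag I T W i) = T hex.choose := by
    unfold can
    rw [dif_pos hex]
  rw [hcan]
  obtain ⟨hk, hk2⟩ := hex.choose_spec
  set k := hex.choose with hkdef
  have h1 : T k ⊆ W ∪ T i := by
    refine hk2.trans (union_subset_union_right (frag_subset I T W i hi))
  have h2 := hmin k hk h1
  have h3 : T k \ W ⊆ frag I T W i := by
    intro x hx
    rw [mem_sdiff] at hx
    rcases mem_union.1 (hk2 hx.1) with h | h
    · exact absurd h hx.2
    · exact h
  have h4 : T k \ W = frag I T W i := by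
    apply Finset.eq_of_subset_of_card_le h3
    rw [hf]
    exact h2
  rw [← h4]
  exact sdiff_subset

theorem bad_sum (I : Finset ι) (T : ι → Finset X) (m s : ℕ)
    (hm : ∀ i ∈ I, (T i).card ≤ m) (N q a : ℝ) (hN : 0 ≤ N) (hq : 0 ≤ q) (ha : 16 * q ≤ a)
    (ha1 : a ≤ 1)
    (hsp : ∀ K : Finset X, ((I.filter (fun i => K ⊆ T i)).card : ℝ) ≤ q ^ K.card * N) :
    ∑ W : Finset X, wt a W * ((I.filter (fun i => s ≤ (frag I T W i).card)).card : ℝ) ≤
      2 ^ m * (1 / 16) ^ s * N := by
  classical
  have ha0 : 0 ≤ a := by linarith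
  -- step 1: fiber over the fragment
  have h1 : ∀ W : Finset X, ((I.filter (fun i => s ≤ (frag I T W i).card)).card : ℝ) ≤
      ∑ U : Finset X, if (s ≤ U.card ∧ Disjoint W U ∧ U ⊆ can I T (W ∪ U)) then
        q ^ U.card * N else 0 := by
    intro W
    rw [Finset.card_eq_sum_card_fiberwise (f := fun i => frag I T W i)
      (t := (univ : Finset (Finset X))) (fun _ _ => Finset.mem_coe.2 (mem_univ _))]
    push_cast
    refine Finset.sum_le_sum fun U _ => ?_
    split_ifs with hc
    · refine le_trans ?_ (hsp U)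
      norm_cast
      refine card_le_card ?_
      intro i hi
      rw [mem_filter, mem_filter] at hi
      refine mem_filter.2 ⟨hi.1.1, ?_⟩
      rw [← hi.2]
      exact frag_subset I T W i hi.1.1
    · have hz : (I.filter (fun i => s ≤ (frag I T W i).card)).filter
          (fun i => frag I T W i = U) = ∅ := by
        rw [filter_eq_empty_iff]
        intro i hi hU
        rw [mem_filter] at hi
        apply hc
        rw [← hU]
        exact ⟨hi.2, frag_disj I T W i hi.1, frag_subset_can I T W i hi.1⟩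
      rw [hz]
      simp
  set A : Finset (Finset X × Finset X) := univ.filter
    (fun p => s ≤ p.2.card ∧ Disjoint p.1 p.2 ∧ p.2 ⊆ can I T (p.1 ∪ p.2)) with hA
  have h2 : ∑ W : Finset X, wt a W * ((I.filter (fun i => s ≤ (frag I T W i).card)).card : ℝ) ≤
      ∑ p ∈ A, wt a p.1 * (q ^ p.2.card * N) := by
    calc _ ≤ ∑ W : Finset X, wt a W * ∑ U : Finset X,
          (if (s ≤ U.card ∧ Disjoint W U ∧ U ⊆ can I T (W ∪ U)) then q ^ U.card * N else 0) :=
        Finset.sum_le_sum fun W _ => mul_le_mul_of_nonneg_left (h1 W) (wt_nonneg ha0 ha1 W)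
      _ = _ := by
        rw [hA, Finset.sum_filter, Fintype.sum_prod_type]
        refine Finset.sum_congr rfl fun W _ => ?_
        rw [Finset.mul_sum]
        refine Finset.sum_congr rfl fun U _ => ?_
        rw [mul_ite, mul_zero]
  set B : Finset ((_ : Finset X) × Finset X) :=
    (univ : Finset (Finset X)).sigma (fun Z => (can I T Z).powerset) with hB
  have h3 : ∑ p ∈ A, wt a p.1 * (q ^ p.2.card * N) ≤
      ∑ r ∈ B, wt a r.1 * ((1 / 16) ^ s * N) := by
    have hinj : Set.InjOn (fun p : Finset X × Finset X =>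
        (⟨p.1 ∪ p.2, p.2⟩ : (_ : Finset X) × Finset X)) (A : Set (Finset X × Finset X)) := by
      intro p hp r hr hpr
      rw [Finset.mem_coe, hA, mem_filter] at hp hr
      simp only [Sigma.mk.injEq, heq_eq_eq] at hpr
      have e1 : p.1 = (p.1 ∪ p.2) \ p.2 := by
        rw [Finset.union_sdiff_right, Finset.sdiff_eq_self_of_disjoint hp.2.2.1]
      have e2 : r.1 = (r.1 ∪ r.2) \ r.2 := by
        rw [Finset.union_sdiff_right, Finset.sdiff_eq_self_of_disjoint hr.2.2.1]
      refine Prod.ext ?_ hpr.2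
      rw [e1, e2, hpr.1, hpr.2]
    calc ∑ p ∈ A, wt a p.1 * (q ^ p.2.card * N)
        ≤ ∑ p ∈ A, wt a (p.1 ∪ p.2) * ((1 / 16) ^ s * N) := by
          refine Finset.sum_le_sum fun p hp => ?_
          rw [hA, mem_filter] at hp
          obtain ⟨-, hs, hd, -⟩ := hp
          have hq1 : q ^ p.2.card ≤ (a / 16) ^ p.2.card :=
            pow_le_pow_left₀ hq (by linarith) _
          have hw := wt_sdiff ha0 ha1 (p.1 ∪ p.2) p.2 subset_union_right
          have e1 : (p.1 ∪ p.2) \ p.2 = p.1 := by
            rw [Finset.union_sdiff_right, Finset.sdiff_eq_self_of_disjoint hd]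
          rw [e1] at hw
          have h16 : ((1 : ℝ) / 16) ^ p.2.card ≤ (1 / 16) ^ s :=
            pow_le_pow_of_le_one (by norm_num) (by norm_num) hs
          have hw0 := wt_nonneg ha0 ha1 p.1
          have hwU := wt_nonneg ha0 ha1 (p.1 ∪ p.2)
          calc wt a p.1 * (q ^ p.2.card * N)
              ≤ wt a p.1 * ((a / 16) ^ p.2.card * N) := by gcongr
            _ = (wt a p.1 * a ^ p.2.card) * ((1 / 16) ^ p.2.card * N) := by
                rw [div_pow, one_div, inv_pow]; ring
            _ ≤ wt a (p.1 ∪ p.2) * ((1 / 16) ^ s * N) := by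
                apply mul_le_mul hw _ (by positivity) hwU
                exact mul_le_mul_of_nonneg_right h16 hN
      _ = ∑ r ∈ A.image (fun p : Finset X × Finset X =>
            (⟨p.1 ∪ p.2, p.2⟩ : (_ : Finset X) × Finset X)),
            wt a r.1 * ((1 / 16) ^ s * N) := by
          rw [Finset.sum_image hinj]
      _ ≤ _ := by
          refine Finset.sum_le_sum_of_subset_of_nonneg ?_ ?_
          · intro r hr
            rw [mem_image] at hr
            obtain ⟨p, hp, rfl⟩ := hr
            rw [hA, mem_filter] at hp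
            rw [hB, mem_sigma]
            exact ⟨mem_univ _, mem_powerset.2 hp.2.2.2⟩
          · intro r _ _
            have := wt_nonneg ha0 ha1 r.1
            positivity
  refine h2.trans (h3.trans ?_)
  rw [hB, Finset.sum_sigma]
  calc ∑ Z : Finset X, ∑ U ∈ (can I T Z).powerset, wt a Z * ((1 / 16) ^ s * N)
      ≤ ∑ Z : Finset X, wt a Z * (2 ^ m * ((1 / 16) ^ s * N)) := by
        refine Finset.sum_le_sum fun Z _ => ?_
        rw [Finset.sum_const, card_powerset, nsmul_eq_mul]
        push_cast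
        have hc : ((2 : ℝ)) ^ (can I T Z).card ≤ 2 ^ m :=
          pow_le_pow_right₀ (by norm_num) (can_card I T m hm Z)
        have := wt_nonneg ha0 ha1 Z
        have h5 : 0 ≤ wt a Z * ((1 / 16) ^ s * N) := by positivity
        calc (2 : ℝ) ^ (can I T Z).card * (wt a Z * ((1 / 16) ^ s * N))
            ≤ 2 ^ m * (wt a Z * ((1 / 16) ^ s * N)) := by gcongr
          _ = _ := by ring
    _ = 2 ^ m * (1 / 16) ^ s * N := by
        rw [← Finset.sum_mul, sum_wt]; ring

/-- density after `R` rounds -/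
noncomputable def dens (a : ℝ) : ℕ → ℝ
  | 0 => 0
  | R + 1 => a + (1 - a) * dens a R

/-- accumulated failure -/
noncomputable def fl : ℕ → ℝ
  | 0 => 0
  | R + 1 => fl R + 1 / 2 * (1 / 4) ^ (R + 1)

theorem dens_nonneg (a : ℝ) (ha0 : 0 ≤ a) (ha1 : a ≤ 1) (R : ℕ) : 0 ≤ dens a R := by
  induction R with
  | zero => simp [dens]
  | succ R ih =>
    simp only [dens]
    have := mul_nonneg (sub_nonneg.2 ha1) ih
    linarith

theorem dens_le_one (a : ℝ) (ha0 : 0 ≤ a) (ha1 : a ≤ 1) (R : ℕ) : dens a R ≤ 1 := by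
  induction R with
  | zero => simp [dens]
  | succ R ih => simp only [dens]; nlinarith [mul_nonneg (sub_nonneg.2 ha1) (sub_nonneg.2 ih)]

theorem spread_main (N q a : ℝ) (hN : 0 ≤ N) (hq : 0 ≤ q) (ha : 16 * q ≤ a) (ha1 : a ≤ 1) :
    ∀ (R : ℕ) (I : Finset ι) (T : ι → Finset X), (∀ i ∈ I, (T i).card < 2 ^ R) →
      (∀ K : Finset X, ((I.filter (fun i => K ⊆ T i)).card : ℝ) ≤ q ^ K.card * N) →
      (I.card : ℝ) - N * fl R ≤ N * ∑ A : Finset X, wt (dens a R) A * hit I T A := by
  classical
  have ha0 : 0 ≤ a := by linarith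
  intro R
  induction R with
  | zero =>
    intro I T hT hsp
    simp only [fl, mul_zero, sub_zero]
    rcases I.eq_empty_or_nonempty with h | ⟨i, hi⟩
    · subst h
      simp only [card_empty, Nat.cast_zero]
      refine mul_nonneg hN (Finset.sum_nonneg fun A _ => mul_nonneg ?_ ?_)
      · exact wt_nonneg (by simp [dens]) (by simp [dens]) A
      · unfold hit; split_ifs <;> norm_num
    · have h0 := hsp ∅
      simp only [empty_subset, card_empty, pow_zero, one_mul] at h0
      have h1 : (I.card : ℝ) ≤ N := by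
        have e : I.filter (fun _ => True) = I := by simp
        rw [e] at h0
        exact h0
      have hTi : T i = ∅ := by
        have := hT i hi
        simpa using this
      have h2 : ∀ A : Finset X, hit I T A = 1 := by
        intro A
        unfold hit
        rw [if_pos ⟨i, hi, by rw [hTi]; exact empty_subset _⟩]
      simp only [h2, mul_one, sum_wt]
      exact h1
  | succ R ih =>
    intro I T hT hsp
    have hfrag : ∀ W : Finset X,
        ((I.filter (fun i => (frag I T W i).card < 2 ^ R)).card : ℝ) - N * fl R ≤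
          N * ∑ B : Finset X, wt (dens a R) B * hit I T (W ∪ B) := by
      intro W
      refine (ih (I.filter (fun i => (frag I T W i).card < 2 ^ R)) (frag I T W) ?_ ?_).trans ?_
      · intro i hi
        exact (mem_filter.1 hi).2
      · intro K
        refine le_trans ?_ (hsp K)
        norm_cast
        refine card_le_card ?_
        intro i hi
        rw [mem_filter, mem_filter] at hi
        exact mem_filter.2 ⟨hi.1.1, hi.2.trans (frag_subset I T W i hi.1.1)⟩
      · refine mul_le_mul_of_nonneg_left (Finset.sum_le_sum fun B _ => ?_) hN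
        refine mul_le_mul_of_nonneg_left ?_ (wt_nonneg ?_ ?_ B)
        · unfold hit
          by_cases h1 : ∃ j ∈ I.filter (fun i => (frag I T W i).card < 2 ^ R),
              frag I T W j ⊆ B
          · have h2 : ∃ j ∈ I, T j ⊆ W ∪ B := by
              obtain ⟨j, hj, hjB⟩ := h1
              obtain ⟨k, hk, hf, -, -⟩ := frag_spec I T W j (mem_filter.1 hj).1
              refine ⟨k, hk, ?_⟩
              intro x hx
              by_cases hxW : x ∈ W
              · exact mem_union_left _ hxW
              · refine mem_union_right _ (hjB ?_)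
                rw [hf]
                exact mem_sdiff.2 ⟨hx, hxW⟩
            rw [if_pos h1, if_pos h2]
          · rw [if_neg h1]
            split_ifs <;> norm_num
        · exact dens_nonneg a ha0 ha1 R
        · exact dens_le_one a ha0 ha1 R
    have hsum := Finset.sum_le_sum (s := (univ : Finset (Finset X)))
      (fun W _ => mul_le_mul_of_nonneg_left (hfrag W) (wt_nonneg ha0 ha1 W))
    have hbad := bad_sum I T (2 ^ (R + 1) - 1) (2 ^ R)
      (fun i hi => Nat.le_sub_one_of_lt (hT i hi)) N q a hN hq ha ha1 hsp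
    have e1 : ∑ W : Finset X, wt a W * (N * ∑ B : Finset X, wt (dens a R) B * hit I T (W ∪ B)) =
        N * ∑ A : Finset X, wt (dens a (R + 1)) A * hit I T A := by
      rw [show dens a (R + 1) = a + (1 - a) * dens a R from rfl,
        ← sum_wt_union a (dens a R) (hit I T), Finset.mul_sum]
      refine Finset.sum_congr rfl fun W _ => ?_
      ring
    have e2 : ∑ W : Finset X, wt a W *
        (((I.filter (fun i => (frag I T W i).card < 2 ^ R)).card : ℝ) - N * fl R) =
        (I.card : ℝ) - N * fl R -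
          ∑ W : Finset X, wt a W * ((I.filter (fun i => 2 ^ R ≤ (frag I T W i).card)).card : ℝ) := by
      have e3 : ∀ W : Finset X, ((I.filter (fun i => (frag I T W i).card < 2 ^ R)).card : ℝ) =
          (I.card : ℝ) - ((I.filter (fun i => 2 ^ R ≤ (frag I T W i).card)).card : ℝ) := by
        intro W
        have := Finset.card_filter_add_card_filter_not (s := I)
          (p := fun i => (frag I T W i).card < 2 ^ R)
        simp only [not_lt] at this
        have h' : ((I.filter (fun i => (frag I T W i).card < 2 ^ R)).card : ℝ) +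
          ((I.filter (fun i => 2 ^ R ≤ (frag I T W i).card)).card : ℝ) = (I.card : ℝ) := by
          exact_mod_cast this
        linarith
      have e4 : ∀ W : Finset X, wt a W *
          (((I.filter (fun i => (frag I T W i).card < 2 ^ R)).card : ℝ) - N * fl R) =
          wt a W * ((I.card : ℝ) - N * fl R) -
            wt a W * ((I.filter (fun i => 2 ^ R ≤ (frag I T W i).card)).card : ℝ) := by
        intro W
        rw [e3 W]; ring
      rw [Finset.sum_congr rfl (fun W _ => e4 W), Finset.sum_sub_distrib, ← Finset.sum_mul,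
        sum_wt, one_mul]
    rw [e1, e2] at hsum
    have h6 : (2 : ℝ) ^ (2 ^ (R + 1) - 1) * (1 / 16) ^ (2 ^ R) ≤ 1 / 2 * (1 / 4) ^ (R + 1) := by
      have e5 : (2 : ℝ) ^ (2 ^ (R + 1) - 1) = 1 / 2 * 4 ^ (2 ^ R) := by
        have h7 : 1 ≤ 2 ^ (R + 1) := Nat.one_le_two_pow
        have h8 : (2 : ℝ) ^ (2 ^ (R + 1) - 1) * 2 = 4 ^ (2 ^ R) := by
          rw [← pow_succ, Nat.sub_add_cancel h7]
          rw [show (4 : ℝ) = 2 ^ 2 by norm_num, ← pow_mul]
          congr 1
          ring
        linarith
      rw [e5]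
      have e6 : (1 : ℝ) / 2 * 4 ^ (2 ^ R) * (1 / 16) ^ (2 ^ R) = 1 / 2 * (1 / 4) ^ (2 ^ R) := by
        rw [mul_assoc, ← mul_pow]
        norm_num
      rw [e6]
      have h9 : R + 1 ≤ 2 ^ R := Nat.lt_two_pow_self
      have h10 : ((1 : ℝ) / 4) ^ (2 ^ R) ≤ (1 / 4) ^ (R + 1) :=
        pow_le_pow_of_le_one (by norm_num) (by norm_num) h9
      linarith
    have h7 : (2 : ℝ) ^ (2 ^ (R + 1) - 1) * (1 / 16) ^ (2 ^ R) * N ≤
        N * (1 / 2 * (1 / 4) ^ (R + 1)) := by
      rw [mul_comm N]
      exact mul_le_mul_of_nonneg_right h6 hN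
    simp only [fl]
    linarith

theorem dens_le (a : ℝ) (ha0 : 0 ≤ a) (ha1 : a ≤ 1) (R : ℕ) : dens a R ≤ R * a := by
  induction R with
  | zero => simp [dens]
  | succ R ih =>
    simp only [dens]
    push_cast
    have h0 := dens_nonneg a ha0 ha1 R
    nlinarith [mul_nonneg ha0 h0]

theorem fl_le (R : ℕ) : fl R ≤ 1 / 6 * (1 - (1 / 4) ^ R) := by
  induction R with
  | zero => simp [fl]
  | succ R ih =>
    simp only [fl]
    rw [pow_succ]
    nlinarith [ih]

/-- The spread lemma. -/
theorem spread_half [Fintype ι] [Nonempty ι] (S : ι → Finset X) (h : ℕ)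
    (hS : ∀ i, (S i).card ≤ h) (q p : ℝ) (hq : 0 ≤ q) (hp1 : p ≤ 1)
    (hp : 16 * q * (1 + (Nat.log 2 h : ℝ)) ≤ p)
    (hsp : ∀ K : Finset X, ((univ.filter (fun i => K ⊆ S i)).card : ℝ) ≤
      q ^ K.card * Fintype.card ι) :
    1 / 2 ≤ ∑ A : Finset X, wt p A * hit univ S A := by
  set R : ℕ := Nat.log 2 h + 1 with hR
  have hlog : (0 : ℝ) ≤ (Nat.log 2 h : ℝ) := Nat.cast_nonneg _
  have ha1 : 16 * q ≤ 1 := by nlinarith
  have ha0 : 0 ≤ 16 * q := by linarith
  have hN : (0 : ℝ) < Fintype.card ι := by exact_mod_cast Fintype.card_pos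
  have hlt : h < 2 ^ R := Nat.lt_pow_succ_log_self (by norm_num) h
  have hmain := spread_main (Fintype.card ι : ℝ) q (16 * q) hN.le hq le_rfl ha1 R univ S
    (fun i _ => lt_of_le_of_lt (hS i) hlt) hsp
  have hfl := fl_le R
  have hpos : (0 : ℝ) ≤ (1 / 4) ^ R := by positivity
  have h1 : (1 : ℝ) / 2 ≤ ∑ A : Finset X, wt (dens (16 * q) R) A * hit univ S A := by
    rw [Finset.card_univ] at hmain
    have h2 : (Fintype.card ι : ℝ) * (1 / 2) ≤
        Fintype.card ι * ∑ A : Finset X, wt (dens (16 * q) R) A * hit univ S A := by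
      have : (Fintype.card ι : ℝ) * fl R ≤ Fintype.card ι * (1 / 6) :=
        mul_le_mul_of_nonneg_left (by linarith) hN.le
      linarith
    exact le_of_mul_le_mul_left h2 hN
  refine h1.trans (sum_wt_mono (dens_nonneg _ ha0 ha1 R) ?_ hp1 _ (hit_mono univ S))
  refine (dens_le _ ha0 ha1 R).trans ?_
  rw [hR]
  push_cast
  linarith

end Crest.Agent.SK
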