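import Mathlib
import Crest.Prelude.Def_RandomGraph
import Crest.Agent.SK.Spread

/-!
Interface definitions for S0076 (row 55).
-/

set_option autoImplicit false
set_option linter.unusedSectionVars false

namespace Crest.Agent.SK

open Finset

variable {W : Type*} [Fintype W] [DecidableEq W]

/-- vertices touched by an edge set -/
def vs (K : Finset (Sym2 W)) : Finset W := univ.filter (fun v => ∃ e ∈ K, v ∈ e)

/-- `g` maps the edges of `K` into `L` -/
def IsEmb (K L : Finset (Sym2 W)) (g : {v // v ∈ vs K} ↪ W) : Prop :=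
  ∀ a b : {v // v ∈ vs K}, s(a.1, b.1) ∈ K → s(g a, g b) ∈ L

/-- number of embeddings of `K` into `L` (injective maps on the vertices touched by `K`). -/
noncomputable def emb (K L : Finset (Sym2 W)) : ℕ :=
  haveI := Classical.decPred (IsEmb K L)
  (univ.filter (fun g : {v // v ∈ vs K} ↪ W => IsEmb K L g)).card

/-- hypothesis (E) -/
def HypE (n : ℕ) (p : ℝ) (E : Finset (Sym2 W)) : Prop :=
  ∀ S : Finset (Sym2 W), S ⊆ E →
    (emb S S : ℝ) ≤ 2 * (n.descFactorial (vs S).card : ℝ) * p ^ S.card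

/-- conclusion [B] -/
def ConB (C : ℝ) (n : ℕ) (p : ℝ) (E : Finset (Sym2 W)) : Prop :=
  ∀ K : Finset (Sym2 W), K ⊆ E →
    (emb K E : ℝ) ≤ C ^ K.card * (n.descFactorial (vs K).card : ℝ) * p ^ K.card

end Crest.Agent.SK
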