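import Mathlib
import Crest.Prelude.Def_RandomGraph
import Crest.Agent.SK.Defs

/-!
From the hypothesis of S0076 (expected numbers of copies) to the counting hypothesis `HypE`.
-/

set_option autoImplicit false
set_option linter.unusedSectionVars false

namespace Crest.Agent.SK

open Finset SimpleGraph Crest.CombinatoricsR.RandomGraph

section general

variable {V' : Type*} [Fintype V'] {m : Type*} [Fintype m]

/-- a permutation which is a homomorphism of a finite graph is an automorphism. -/
theorem perm_hom_iff (A : SimpleGraph V') (σ : Equiv.Perm V') (hσ : ∀ a b, A.Adj a b → A.Adj (σ a) (σ b))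
    (a b : V') : A.Adj (σ a) (σ b) ↔ A.Adj a b := by
  classical
  refine ⟨fun h => ?_, hσ a b⟩
  have hk : ∀ k : ℕ, ∀ a b, A.Adj a b → A.Adj ((σ ^ k) a) ((σ ^ k) b) := by
    intro k
    induction k with
    | zero => intro a b h; simpa using h
    | succ k ih => intro a b h; rw [pow_succ']; simpa using hσ _ _ (ih a b h)
  have h1 := hk (orderOf σ - 1) _ _ h
  have h2 : σ ^ (orderOf σ - 1) = σ⁻¹ := by
    rw [eq_inv_iff_mul_eq_one, ← pow_succ, Nat.sub_add_cancel (orderOf_pos σ), pow_orderOf_eq_one]
  rw [h2] at h1
  simpa using h1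

/-- number of automorphisms times number of copies is at most the number of labelled copies. -/
theorem aut_mul_copyCount_le (A : SimpleGraph V') (G : SimpleGraph m)
    (P : Finset (V' ↪ V')) (hP : ∀ g ∈ P, ∀ a b, A.Adj a b → A.Adj (g a) (g b)) :
    P.card * G.copyCount A ≤ G.labelledCopyCount A := by
  classical
  rw [copyCount_eq_card_image_copyToSubgraph, labelledCopyCount]
  rw [← Finset.card_product, ← Finset.card_univ]
  -- choose representatives
  have hch : ∀ G' : G.Subgraph, ∃ f : Option (Copy A G),
      G' ∈ (Finset.univ : Finset (Copy A G)).image Copy.toSubgraph →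
        ∃ f' : Copy A G, f = some f' ∧ f'.toSubgraph = G' := by
    intro G'
    by_cases h : G' ∈ (Finset.univ : Finset (Copy A G)).image Copy.toSubgraph
    · obtain ⟨f', _, hf'⟩ := Finset.mem_image.1 h
      exact ⟨some f', fun _ => ⟨f', rfl, hf'⟩⟩
    · exact ⟨none, fun h' => absurd h' h⟩
  choose r hr using hch
  have hiso : ∀ g ∈ P, ∃ e : A ≃g A, ∀ v, e v = g v := by
    intro g hg
    have hb : Function.Bijective g := (Finite.injective_iff_bijective).1 g.injective
    refine ⟨⟨Equiv.ofBijective g hb, ?_⟩, fun v => rfl⟩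
    intro a b
    exact perm_hom_iff A (Equiv.ofBijective g hb) (hP g hg) a b
  set Q := P ×ˢ (Finset.univ : Finset (Copy A G)).image Copy.toSubgraph with hQ
  have hex : ∀ x : (V' ↪ V') × G.Subgraph, ∃ f : Option (Copy A G), x ∈ Q →
      ∃ f' : Copy A G, f = some f' ∧ ∃ f0 : Copy A G, r x.2 = some f0 ∧ f0.toSubgraph = x.2 ∧
        (∀ v, f' v = f0 (x.1 v)) ∧ f'.toSubgraph = x.2 := by
    intro x
    by_cases h : x ∈ Q
    · obtain ⟨h1, h2⟩ := Finset.mem_product.1 h
      obtain ⟨e, he⟩ := hiso x.1 h1
      obtain ⟨f0, hf0, hf1⟩ := hr x.2 h2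
      refine ⟨some (f0.comp e.toCopy), fun _ => ⟨_, rfl, f0, hf0, hf1, ?_, ?_⟩⟩
      · intro v
        rw [← he v]
        rfl
      · rw [← hf1]
        show Subgraph.map (f0.comp e.toCopy).toHom ⊤ = Subgraph.map f0.toHom ⊤
        have : (f0.comp e.toCopy).toHom = f0.toHom.comp e.toHom := rfl
        rw [this, Subgraph.map_comp]
        congr 1
        ext a b
        · simp only [Subgraph.map_verts, Subgraph.verts_top, Set.image_univ, Set.mem_range,
            Set.mem_univ, iff_true]
          exact ⟨e.symm a, e.apply_symm_apply a⟩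
        · simp only [Subgraph.map_adj, Subgraph.top_adj, Relation.Map]
          constructor
          · rintro ⟨c, d, hcd, rfl, rfl⟩
            exact e.map_rel_iff.2 hcd
          · intro hab
            refine ⟨e.symm a, e.symm b, ?_, e.apply_symm_apply a, e.apply_symm_apply b⟩
            exact e.symm.map_rel_iff.2 hab
    · exact ⟨none, fun h' => absurd h' h⟩
  choose F hF using hex
  have hsome : (Finset.univ : Finset (Copy A G)).card =
      ((Finset.univ : Finset (Copy A G)).map ⟨some, Option.some_injective _⟩).card := by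
    rw [Finset.card_map]
  rw [hsome]
  refine Finset.card_le_card_of_injOn F ?_ ?_
  · intro x hx
    obtain ⟨f', hf', _⟩ := hF x hx
    simp [hf']
  · intro x hx y hy hxy
    obtain ⟨f', hf', f0, h0, h1, h2, h3⟩ := hF x hx
    obtain ⟨k', hk', k0, i0, i1, i2, i3⟩ := hF y hy
    have hfk : f' = k' := by
      have : some f' = some k' := by rw [← hf', ← hk', hxy]
      exact Option.some_injective _ this
    have h22 : x.2 = y.2 := by rw [← h3, ← i3, hfk]
    have h00 : f0 = k0 := by
      have : some f0 = some k0 := by rw [← h0, ← i0, h22]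
      exact Option.some_injective _ this
    have h11 : x.1 = y.1 := by
      ext v
      have h4 : f0 (x.1 v) = f0 (y.1 v) := by
        rw [← h2 v, hfk, i2 v, h00]
      exact f0.injective h4
    exact Prod.ext h11 h22

theorem labelled_le (A : SimpleGraph V') (G : SimpleGraph m) (Q : (V' ↪ m) → Prop)
    [Fintype {g : V' ↪ m // Q g}] (h : ∀ f : Copy A G, Q f.toEmbedding) :
    G.labelledCopyCount A ≤ Fintype.card {g : V' ↪ m // Q g} := by
  unfold labelledCopyCount
  let F : Copy A G → {g : V' ↪ m // Q g} := fun f => ⟨f.toEmbedding, h f⟩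
  have hF : Function.Injective F := by
    intro f f' hff
    have h0 : f.toEmbedding = f'.toEmbedding := congrArg Subtype.val hff
    have h1 : ∀ v, f v = f' v := fun v => DFunLike.congr_fun h0 v
    exact DFunLike.ext _ _ h1
  classical
  simp only [← Nat.card_eq_fintype_card]
  have : Finite {g : V' ↪ m // Q g} := Fintype.finite inferInstance
  exact Nat.card_le_card_of_injective F hF

end general

/-- probability that all slots of `T` are on. -/
theorem sum_weight_all {ι : Type*} [Fintype ι] [DecidableEq ι] (p : ℝ) (T : Finset ι) :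
    ∑ ω : ι → Bool, Crest.FinProb.bernoulliWeight p ω * (if ∀ t ∈ T, ω t = true then 1 else 0) =
      p ^ T.card := by
  have h1 : ∀ ω : ι → Bool, Crest.FinProb.bernoulliWeight p ω *
      (if ∀ t ∈ T, ω t = true then (1 : ℝ) else 0) =
      ∏ i, ((if ω i then p else 1 - p) * (if i ∈ T ∧ ω i = false then 0 else 1)) := by
    intro ω
    rw [Finset.prod_mul_distrib]
    unfold Crest.FinProb.bernoulliWeight
    congr 1
    by_cases h : ∀ t ∈ T, ω t = true
    · rw [if_pos h]
      symm
      apply Finset.prod_eq_one
      intro i _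
      rw [if_neg]
      rintro ⟨h2, h3⟩
      rw [h i h2] at h3
      exact absurd h3 (by simp)
    · rw [if_neg h]
      push Not at h
      obtain ⟨t, ht, ht2⟩ := h
      symm
      apply Finset.prod_eq_zero (Finset.mem_univ t)
      rw [if_pos]
      exact ⟨ht, by simpa using ht2⟩
  simp only [h1]
  have h2 := (Finset.prod_univ_sum (fun _ : ι => (Finset.univ : Finset Bool))
    (fun i b => ((if b then p else 1 - p) * (if i ∈ T ∧ b = false then (0 : ℝ) else 1))))
  rw [Fintype.piFinset_univ] at h2
  rw [← h2]
  have h3 : ∀ i : ι, ∑ b : Bool, ((if b then p else 1 - p) * (if i ∈ T ∧ b = false then (0 : ℝ) else 1))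
      = if i ∈ T then p else 1 := by
    intro i
    rw [Fintype.sum_bool]
    by_cases hi : i ∈ T <;> simp [hi]
  simp only [h3]
  rw [Finset.prod_ite_mem, Finset.univ_inter, Finset.prod_const]

variable {W : Type*} [Fintype W] [DecidableEq W]

set_option maxHeartbeats 2000000 in
theorem hypE_of_expect (n : ℕ) (H : SimpleGraph W) [DecidableRel H.Adj]
    (p : ℝ) (hp0 : 0 ≤ p) (hp1 : p ≤ 1)
    (hE : ∀ F : H.Subgraph, (1 : ℝ) / 2 ≤
      gnpExpect n p (fun G => (G.copyCount F.coe : ℝ))) :
    HypE n p H.edgeFinset := by
  classical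
  intro S hS
  -- the subgraph with edge set S and no isolated vertices
  have hadj : ∀ a b, s(a, b) ∈ S → H.Adj a b := by
    intro a b h
    have := hS h
    rwa [mem_edgeFinset] at this
  let F : H.Subgraph :=
    { verts := {v | v ∈ vs S}
      Adj := fun a b => s(a, b) ∈ S
      adj_sub := fun {a b} h => hadj a b h
      edge_vert := fun {a b} h => by
        simp only [vs, Set.mem_ofPred_eq, mem_filter, mem_univ, true_and]
        exact ⟨_, h, Sym2.mem_mk_left a b⟩
      symm := ⟨fun a b h => by
        show s(b, a) ∈ S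
        rw [Sym2.eq_swap]; exact h⟩ }
  let A : SimpleGraph {v // v ∈ vs S} :=
    { Adj := fun a b => s(a.1, b.1) ∈ S
      symm := ⟨fun a b h => by
        show s(b.1, a.1) ∈ S
        rw [Sym2.eq_swap]; exact h⟩
      loopless := ⟨fun a h => (hadj _ _ h).ne rfl⟩ }
  have hFA : ∀ G : SimpleGraph (Fin n), G.copyCount F.coe = G.copyCount A := by
    intro G
    rfl
  -- automorphisms
  set P : Finset ({v // v ∈ vs S} ↪ {v // v ∈ vs S}) :=
    univ.filter (fun g => ∀ a b, A.Adj a b → A.Adj (g a) (g b)) with hPdef
  have hmem : ∀ a b : W, s(a, b) ∈ S → a ∈ vs S := by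
    intro a b h
    simp only [vs, mem_filter, mem_univ, true_and]
    exact ⟨_, h, Sym2.mem_mk_left a b⟩
  have hembP : emb S S ≤ P.card := by
    unfold emb
    have hval : ∀ g : {v // v ∈ vs S} ↪ W, IsEmb S S g → ∀ v, g v ∈ vs S := by
      intro g hg v
      have hv := v.2
      simp only [vs, mem_filter, mem_univ, true_and] at hv
      obtain ⟨e, he, hve⟩ := hv
      obtain ⟨w, rfl⟩ := Sym2.mem_iff_exists.1 hve
      have hw : w ∈ vs S := hmem w v.1 (by rw [Sym2.eq_swap]; exact he)
      have := hg v ⟨w, hw⟩ he
      exact hmem _ _ this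
    have hmap : ∀ g : {v // v ∈ vs S} ↪ W, ∃ k : Option ({v // v ∈ vs S} ↪ {v // v ∈ vs S}),
        IsEmb S S g → ∃ k' ∈ P, k = some k' ∧ ∀ v, (k' v : W) = g v := by
      intro g
      by_cases h : IsEmb S S g
      · refine ⟨some ⟨fun v => ⟨g v, hval g h v⟩, fun a b hab => ?_⟩, fun _ => ⟨_, ?_, rfl, fun v => rfl⟩⟩
        · have := congrArg Subtype.val hab
          exact g.injective this
        · rw [hPdef, mem_filter]
          refine ⟨mem_univ _, fun a b hab => h a b hab⟩
      · exact ⟨none, fun h' => absurd h' h⟩
    choose k hk using hmap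
    have hsome : P.card = (P.map ⟨some, Option.some_injective _⟩).card := by rw [Finset.card_map]
    rw [hsome]
    refine Finset.card_le_card_of_injOn k ?_ ?_
    · intro g hg
      rw [Finset.mem_coe, mem_filter] at hg
      obtain ⟨k', hk', he, _⟩ := hk g hg.2
      rw [he]
      simp [hk']
    · intro g hg g' hg' hgg
      rw [Finset.mem_coe, mem_filter] at hg hg'
      obtain ⟨k', _, he, hv⟩ := hk g hg.2
      obtain ⟨k'', _, he', hv'⟩ := hk g' hg'.2
      have : k' = k'' := by
        have : some k' = some k'' := by rw [← he, ← he', hgg]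
        exact Option.some_injective _ this
      ext v
      rw [← hv v, ← hv' v, this]
  -- edges as pairs in the subtype
  set S' : Finset (Sym2 {v // v ∈ vs S}) := univ.filter (fun z => z.map Subtype.val ∈ S) with hS'
  have hS'card : S'.card = S.card := by
    have : S'.image (Sym2.map Subtype.val) = S := by
      ext e
      simp only [mem_image, hS', mem_filter, mem_univ, true_and]
      constructor
      · rintro ⟨z, hz, rfl⟩; exact hz
      · intro he
        induction e with
        | _ a b =>
          refine ⟨s(⟨a, hmem a b he⟩, ⟨b, hmem b a (by rw [Sym2.eq_swap]; exact he)⟩), ?_, ?_⟩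
          · simpa using he
          · simp
    have h2 := congrArg Finset.card this
    rw [Finset.card_image_of_injective _ (Sym2.map.injective Subtype.val_injective)] at h2
    exact h2
  -- slots of an embedding
  have hnd : ∀ (g : {v // v ∈ vs S} ↪ Fin n) (z : Sym2 {v // v ∈ vs S}), z ∈ S' →
      ¬ (z.map g).IsDiag := by
    intro g z hz
    induction z with
    | _ a b =>
      simp only [hS', mem_filter, mem_univ, true_and, Sym2.map_mk] at hz
      simp only [Sym2.map_mk, Sym2.mk_isDiag_iff]
      intro h
      have := g.injective h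
      subst this
      exact (hadj _ _ hz).ne rfl
  let T : ({v // v ∈ vs S} ↪ Fin n) → Finset (EdgeSlot n) := fun g =>
    S'.attach.image (fun z => ⟨z.1.map g, hnd g z.1 z.2⟩)
  have hTcard : ∀ g, (T g).card = S.card := by
    intro g
    rw [← hS'card, ← Finset.card_attach (s := S')]
    apply Finset.card_image_of_injective
    intro z z' hzz
    have h1 := congrArg Subtype.val hzz
    have h2 := Sym2.map.injective g.injective h1
    exact Subtype.ext h2
  -- labelled copies
  have hlab : ∀ ω : EdgeSlot n → Bool, (((graphOf ω).labelledCopyCount A : ℕ) : ℝ) ≤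
      ∑ g : {v // v ∈ vs S} ↪ Fin n, (if ∀ t ∈ T g, ω t = true then (1 : ℝ) else 0) := by
    intro ω
    rw [Finset.sum_boole]
    rw [← Fintype.card_subtype]
    refine Nat.cast_le.2 (labelled_le A (graphOf ω) (fun g => ∀ t ∈ T g, ω t = true) ?_)
    intro f t ht
    simp only [T, mem_image, mem_attach, true_and, Subtype.exists] at ht
    obtain ⟨z, hz, rfl⟩ := ht
    induction z with
    | _ a b =>
      have hz2 := hz
      simp only [hS', mem_filter, mem_univ, true_and, Sym2.map_mk] at hz2
      have hA : A.Adj a b := hz2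
      have h1 : (graphOf ω).Adj (f a) (f b) := f.toHom.map_adj hA
      unfold graphOf at h1
      rw [fromEdgeSet_adj] at h1
      obtain ⟨⟨h2, h3⟩, _⟩ := h1
      exact h3
  -- conclusion
  have hw : ∀ ω : EdgeSlot n → Bool, 0 ≤ Crest.FinProb.bernoulliWeight p ω := by
    intro ω
    unfold Crest.FinProb.bernoulliWeight
    apply Finset.prod_nonneg
    intro i _
    split_ifs <;> linarith
  have hmain : (P.card : ℝ) * gnpExpect n p (fun G => (G.copyCount F.coe : ℝ)) ≤
      (n.descFactorial (vs S).card : ℝ) * p ^ S.card := by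
    unfold gnpExpect
    rw [Finset.mul_sum]
    calc ∑ ω : EdgeSlot n → Bool, (P.card : ℝ) * (Crest.FinProb.bernoulliWeight p ω *
          ((graphOf ω).copyCount F.coe : ℝ))
        ≤ ∑ ω : EdgeSlot n → Bool, Crest.FinProb.bernoulliWeight p ω *
          ∑ g : {v // v ∈ vs S} ↪ Fin n, (if ∀ t ∈ T g, ω t = true then (1 : ℝ) else 0) := by
          refine Finset.sum_le_sum fun ω _ => ?_
          have h1 : ((P.card * (graphOf ω).copyCount A : ℕ) : ℝ) ≤
              (((graphOf ω).labelledCopyCount A : ℕ) : ℝ) := by
            exact_mod_cast aut_mul_copyCount_le A (graphOf ω) P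
              (fun g hg a b hab => (mem_filter.1 hg).2 a b hab)
          have h2 := h1.trans (hlab ω)
          rw [hFA]
          push_cast at h2
          calc (P.card : ℝ) * (Crest.FinProb.bernoulliWeight p ω *
                ((graphOf ω).copyCount A : ℝ)) =
              Crest.FinProb.bernoulliWeight p ω * ((P.card : ℝ) *
                ((graphOf ω).copyCount A : ℝ)) := by ring
            _ ≤ _ := mul_le_mul_of_nonneg_left h2 (hw ω)
      _ = ∑ g : {v // v ∈ vs S} ↪ Fin n, p ^ (T g).card := by
          simp only [Finset.mul_sum]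
          rw [Finset.sum_comm]
          refine Finset.sum_congr rfl fun g _ => ?_
          exact sum_weight_all p (T g)
      _ = _ := by
          simp only [hTcard]
          rw [Finset.sum_const, Finset.card_univ, Fintype.card_embedding_eq]
          simp
  have h12 := hE F
  have hPE : (emb S S : ℝ) ≤ P.card := by exact_mod_cast hembP
  have hP0 : (0 : ℝ) ≤ P.card := Nat.cast_nonneg _
  nlinarith

end Crest.Agent.SK
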