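import Mathlib
import Crest.Prelude.Def_RandomGraph
import Crest.Agent.SK.HypE
import Crest.Agent.KK.Defs

/-!
Bridge between the group-action form (namespace `KK`) and the random graph statement (S0076).
-/

set_option autoImplicit false
set_option linter.unusedSectionVars false

open Finset SimpleGraph Crest.CombinatoricsR.RandomGraph
open scoped Classical

namespace Crest.Agent.SK

open Crest.Agent.KK

/-- action of a vertex permutation on the slots -/
def slotPerm {n : ℕ} (γ : Equiv.Perm (Fin n)) : Equiv.Perm (EdgeSlot n) where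
  toFun z := ⟨z.1.map γ, fun h => z.2 ((Sym2.isDiag_map γ.injective).1 h)⟩
  invFun z := ⟨z.1.map γ.symm, fun h => z.2 ((Sym2.isDiag_map γ.symm.injective).1 h)⟩
  left_inv z := by
    apply Subtype.ext
    simp [Sym2.map_map]
  right_inv z := by
    apply Subtype.ext
    simp [Sym2.map_map]

theorem slotPerm_val {n : ℕ} (γ : Equiv.Perm (Fin n)) (z : EdgeSlot n) :
    (slotPerm γ z).1 = z.1.map γ := rfl

/-- the group of slot permutations coming from vertex permutations -/
def Gam (n : ℕ) : Subgroup (Equiv.Perm (EdgeSlot n)) where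
  carrier := Set.range slotPerm
  mul_mem' := by
    rintro _ _ ⟨a, rfl⟩ ⟨b, rfl⟩
    refine ⟨a * b, ?_⟩
    ext z
    rw [Equiv.Perm.mul_apply, slotPerm_val, slotPerm_val, slotPerm_val, Sym2.map_map]
    rfl
  one_mem' := by
    refine ⟨1, ?_⟩
    ext z
    rw [slotPerm_val]
    simp
  inv_mem' := by
    rintro _ ⟨a, rfl⟩
    refine ⟨a⁻¹, ?_⟩
    rw [eq_inv_iff_mul_eq_one]
    ext z
    rw [Equiv.Perm.mul_apply, slotPerm_val, slotPerm_val, Sym2.map_map]
    simp

section orbits

variable {N : Type} [Fintype N] [DecidableEq N] (Γ : Subgroup (Equiv.Perm N))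

theorem mem_orb {T T' : Finset N} : T' ∈ orb Γ T ↔ ∃ σ ∈ Γ, T.image σ = T' := by
  simp [orb]

theorem self_mem_orb (T : Finset N) : T ∈ orb Γ T := by
  rw [mem_orb]; exact ⟨1, Γ.one_mem, by simp⟩

theorem orb_eq {T T' : Finset N} (h : T' ∈ orb Γ T) : orb Γ T' = orb Γ T := by
  obtain ⟨σ, hσ, rfl⟩ := (mem_orb Γ).1 h
  ext U
  rw [mem_orb, mem_orb]
  constructor
  · rintro ⟨τ, hτ, rfl⟩
    exact ⟨τ * σ, Γ.mul_mem hτ hσ, by rw [Finset.image_image]; rfl⟩
  · rintro ⟨τ, hτ, rfl⟩
    refine ⟨τ * σ⁻¹, Γ.mul_mem hτ (Γ.inv_mem hσ), ?_⟩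
    rw [Finset.image_image]
    congr 1
    funext x
    simp

theorem card_of_mem_orb {T T' : Finset N} (h : T' ∈ orb Γ T) : T'.card = T.card := by
  obtain ⟨σ, _, rfl⟩ := (mem_orb Γ).1 h
  exact Finset.card_image_of_injective _ σ.injective

/-- the number of members of `orb H` above `σ K` does not depend on `σ`. -/
theorem up_const {K H : Finset N} {σ : Equiv.Perm N} (hσ : σ ∈ Γ) :
    ((orb Γ H).filter (fun S => K.image σ ⊆ S)).card = ((orb Γ H).filter (fun S => K ⊆ S)).card := by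
  symm
  refine Finset.card_bij (fun S _ => S.image σ) ?_ ?_ ?_
  · intro S hS
    rw [mem_filter] at hS ⊢
    refine ⟨?_, Finset.image_subset_image hS.2⟩
    rw [← orb_eq Γ hS.1]
    exact (mem_orb Γ).2 ⟨σ, hσ, rfl⟩
  · intro S _ S' _ h
    exact Finset.image_injective σ.injective h
  · intro S hS
    rw [mem_filter] at hS
    refine ⟨S.image (σ⁻¹ : Equiv.Perm N), ?_, ?_⟩
    · rw [mem_filter]
      refine ⟨?_, ?_⟩
      · rw [← orb_eq Γ hS.1]
        exact (mem_orb Γ).2 ⟨σ⁻¹, Γ.inv_mem hσ, rfl⟩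
      · have := Finset.image_subset_image (f := (σ⁻¹ : Equiv.Perm N)) hS.2
        rw [Finset.image_image] at this
        have h2 : (⇑(σ⁻¹) ∘ ⇑σ) = id := by funext x; simp
        rw [h2, Finset.image_id] at this
        exact this
    · rw [Finset.image_image]
      have h2 : (⇑σ ∘ ⇑(σ⁻¹)) = id := by funext x; simp
      rw [h2, Finset.image_id]

theorem down_const {K H : Finset N} {σ : Equiv.Perm N} (hσ : σ ∈ Γ) :
    ((orb Γ K).filter (fun S => S ⊆ H.image σ)).card = ((orb Γ K).filter (fun S => S ⊆ H)).card := by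
  symm
  refine Finset.card_bij (fun S _ => S.image σ) ?_ ?_ ?_
  · intro S hS
    rw [mem_filter] at hS ⊢
    refine ⟨?_, Finset.image_subset_image hS.2⟩
    rw [← orb_eq Γ hS.1]
    exact (mem_orb Γ).2 ⟨σ, hσ, rfl⟩
  · intro S _ S' _ h
    exact Finset.image_injective σ.injective h
  · intro S hS
    rw [mem_filter] at hS
    refine ⟨S.image (σ⁻¹ : Equiv.Perm N), ?_, ?_⟩
    · rw [mem_filter]
      refine ⟨?_, ?_⟩
      · rw [← orb_eq Γ hS.1]
        exact (mem_orb Γ).2 ⟨σ⁻¹, Γ.inv_mem hσ, rfl⟩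
      · have := Finset.image_subset_image (f := (σ⁻¹ : Equiv.Perm N)) hS.2
        rw [Finset.image_image] at this
        have h2 : (⇑(σ⁻¹) ∘ ⇑σ) = id := by funext x; simp
        rw [h2, Finset.image_id] at this
        exact this
    · rw [Finset.image_image]
      have h2 : (⇑σ ∘ ⇑(σ⁻¹)) = id := by funext x; simp
      rw [h2, Finset.image_id]

/-- double counting. -/
theorem double_count (K H : Finset N) :
    (orb Γ K).card * ((orb Γ H).filter (fun S => K ⊆ S)).card =
      (orb Γ H).card * ((orb Γ K).filter (fun S => S ⊆ H)).card := by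
  have h1 : ∑ K' ∈ orb Γ K, ((orb Γ H).filter (fun S => K' ⊆ S)).card =
      ∑ H' ∈ orb Γ H, ((orb Γ K).filter (fun S => S ⊆ H')).card := by
    simp only [Finset.card_filter]
    rw [Finset.sum_comm]
  have h2 : ∑ K' ∈ orb Γ K, ((orb Γ H).filter (fun S => K' ⊆ S)).card =
      (orb Γ K).card * ((orb Γ H).filter (fun S => K ⊆ S)).card := by
    rw [Finset.sum_congr rfl (g := fun _ => ((orb Γ H).filter (fun S => K ⊆ S)).card)]
    · rw [Finset.sum_const, smul_eq_mul]
    · intro K' hK'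
      obtain ⟨σ, hσ, rfl⟩ := (mem_orb Γ).1 hK'
      exact up_const Γ hσ
  have h3 : ∑ H' ∈ orb Γ H, ((orb Γ K).filter (fun S => S ⊆ H')).card =
      (orb Γ H).card * ((orb Γ K).filter (fun S => S ⊆ H)).card := by
    rw [Finset.sum_congr rfl (g := fun _ => ((orb Γ K).filter (fun S => S ⊆ H)).card)]
    · rw [Finset.sum_const, smul_eq_mul]
    · intro H' hH'
      obtain ⟨σ, hσ, rfl⟩ := (mem_orb Γ).1 hH'
      exact down_const Γ hσ
  rw [← h2, h1, h3]

/-- the copies of `H` form a `q`-spread family. -/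
theorem spread_family (H : Finset N) (q : ℝ) (hq : 0 ≤ q)
    (hsp : ∀ T : Finset N, T ⊆ H →
      (((orb Γ T).filter (fun T' => T' ⊆ H)).card : ℝ) ≤ q ^ T.card * ((orb Γ T).card : ℝ))
    (K : Finset N) :
    (((orb Γ H).filter (fun S => K ⊆ S)).card : ℝ) ≤ q ^ K.card * ((orb Γ H).card : ℝ) := by
  have hK : ((orb Γ K).filter (fun S => S ⊆ H)).card = 0 ∨
      (((orb Γ K).filter (fun T' => T' ⊆ H)).card : ℝ) ≤ q ^ K.card * ((orb Γ K).card : ℝ) := by
    by_cases h : ((orb Γ K).filter (fun S => S ⊆ H)).Nonempty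
    · obtain ⟨T, hT⟩ := h
      rw [mem_filter] at hT
      right
      have := hsp T hT.2
      rw [orb_eq Γ hT.1, card_of_mem_orb Γ hT.1] at this
      exact this
    · left
      rw [Finset.not_nonempty_iff_eq_empty.1 h, Finset.card_empty]
  have hpos : (0 : ℝ) < (orb Γ K).card := by
    exact_mod_cast Finset.card_pos.2 ⟨K, self_mem_orb Γ K⟩
  have hdc : ((orb Γ K).card : ℝ) * (((orb Γ H).filter (fun S => K ⊆ S)).card : ℝ) =
      ((orb Γ H).card : ℝ) * (((orb Γ K).filter (fun S => S ⊆ H)).card : ℝ) := by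
    exact_mod_cast double_count Γ K H
  have hH0 : (0 : ℝ) ≤ (orb Γ H).card := Nat.cast_nonneg _
  have hb : (((orb Γ K).filter (fun T' => T' ⊆ H)).card : ℝ) ≤ q ^ K.card * ((orb Γ K).card : ℝ) := by
    rcases hK with h | h
    · rw [h]; push_cast; positivity
    · exact h
  have h4 : ((orb Γ K).card : ℝ) * (((orb Γ H).filter (fun S => K ⊆ S)).card : ℝ) ≤
      ((orb Γ K).card : ℝ) * (q ^ K.card * ((orb Γ H).card : ℝ)) := by
    rw [hdc]
    calc _ ≤ ((orb Γ H).card : ℝ) * (q ^ K.card * ((orb Γ K).card : ℝ)) :=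
          mul_le_mul_of_nonneg_left hb hH0
      _ = _ := by ring
  exact le_of_mul_le_mul_left h4 hpos

end orbits

end Crest.Agent.SK
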