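import Mathlib
import Crest.Prelude.Def_RandomGraph
import Crest.Agent.SK.Bridge

/-!
The expectation hypothesis of S0076 in orbit form; the conclusion from the orbit spread bound.
-/

set_option autoImplicit false
set_option linter.unusedSectionVars false

open Finset SimpleGraph Crest.CombinatoricsR.RandomGraph
open scoped Classical

namespace Crest.Agent.SK

open Crest.Agent.KK

variable {W : Type} [Fintype W] [DecidableEq W]

/-- slots covered by the edges `S` under `φ` -/
noncomputable def slots {n : ℕ} (φ : W → Fin n) (S : Finset (Sym2 W)) : Finset (EdgeSlot n) :=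
  univ.filter (fun z => ∃ e ∈ S, e.map φ = z.1)

theorem mem_slots {n : ℕ} (φ : W → Fin n) (S : Finset (Sym2 W)) (z : EdgeSlot n) :
    z ∈ slots φ S ↔ ∃ e ∈ S, e.map φ = z.1 := by simp [slots]

theorem slots_card {n : ℕ} (φ : W → Fin n) (hφ : Function.Injective φ) (S : Finset (Sym2 W))
    (hS : ∀ e ∈ S, ¬ e.IsDiag) : (slots φ S).card = S.card := by
  have : (slots φ S).image (Subtype.val) = S.image (Sym2.map φ) := by
    ext z
    simp only [mem_image, mem_slots, Subtype.exists, exists_and_right, exists_eq_right]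
    constructor
    · rintro ⟨_, e, he, hez⟩; exact ⟨e, he, hez⟩
    · rintro ⟨e, he, hez⟩
      refine ⟨?_, e, he, hez⟩
      rw [← hez]
      intro h
      exact hS e he ((Sym2.isDiag_map hφ).1 h)
  have h2 := congrArg Finset.card this
  rw [Finset.card_image_of_injective _ Subtype.val_injective,
    Finset.card_image_of_injective _ (Sym2.map.injective hφ)] at h2
  exact h2

theorem graphOf_adj {n : ℕ} (ω : EdgeSlot n → Bool) (a b : Fin n) :
    (graphOf ω).Adj a b ↔ ∃ h : ¬ (s(a, b)).IsDiag, ω ⟨s(a, b), h⟩ = true := by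
  unfold graphOf
  rw [fromEdgeSet_adj]
  constructor
  · rintro ⟨h, _⟩; exact h
  · rintro ⟨h, h2⟩
    refine ⟨⟨h, h2⟩, ?_⟩
    intro hab
    exact h (by rw [Sym2.mk_isDiag_iff]; exact hab)

set_option maxHeartbeats 1000000 in
theorem orb_of_expect (n : ℕ) (H : SimpleGraph W) [DecidableRel H.Adj]
    (p : ℝ) (hp0 : 0 ≤ p) (hp1 : p ≤ 1)
    (hE : ∀ F : H.Subgraph, (1 : ℝ) / 2 ≤
      gnpExpect n p (fun G => (G.copyCount F.coe : ℝ)))
    (φ : W ↪ Fin n) (D : Finset (EdgeSlot n)) (hD : D ⊆ slots φ H.edgeFinset) :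
    1 / 2 ≤ ((orb (Gam n) D).card : ℝ) * p ^ D.card := by
  set S : Finset (Sym2 W) := H.edgeFinset.filter (fun e => ∃ z ∈ D, e.map φ = z.1) with hSdef
  have hSH : S ⊆ H.edgeFinset := filter_subset _ _
  have hadj : ∀ a b, s(a, b) ∈ S → H.Adj a b := by
    intro a b h
    have := hSH h
    rwa [mem_edgeFinset] at this
  have hDS : D = slots φ S := by
    ext z
    rw [mem_slots]
    constructor
    · intro hz
      obtain ⟨e, he, hez⟩ := (mem_slots _ _ _).1 (hD hz)
      exact ⟨e, by rw [hSdef, mem_filter]; exact ⟨he, z, hz, hez⟩, hez⟩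
    · rintro ⟨e, he, hez⟩
      rw [hSdef, mem_filter] at he
      obtain ⟨_, z', hz', hez'⟩ := he
      have : z' = z := Subtype.ext (by rw [← hez', hez])
      rw [← this]; exact hz'
  let F : H.Subgraph :=
    { verts := {v | v ∈ vs S}
      Adj := fun a b => s(a, b) ∈ S
      adj_sub := fun {a b} h => hadj a b h
      edge_vert := fun {a b} h => by
        simp only [vs, Set.mem_ofPred_eq, mem_filter, mem_univ, true_and]
        exact ⟨_, h, Sym2.mem_mk_left a b⟩
      symm := ⟨fun a b h => by
        show s(b, a) ∈ S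
        rw [Sym2.eq_swap]; exact h⟩ }
  let A : SimpleGraph {v // v ∈ vs S} :=
    { Adj := fun a b => s(a.1, b.1) ∈ S
      symm := ⟨fun a b h => by
        show s(b.1, a.1) ∈ S
        rw [Sym2.eq_swap]; exact h⟩
      loopless := ⟨fun a h => (hadj _ _ h).ne rfl⟩ }
  have hFA : ∀ G : SimpleGraph (Fin n), G.copyCount F.coe = G.copyCount A := by
    intro G
    rfl
  have hmem : ∀ a b : W, s(a, b) ∈ S → a ∈ vs S := by
    intro a b h
    simp only [vs, mem_filter, mem_univ, true_and]
    exact ⟨_, h, Sym2.mem_mk_left a b⟩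
  have hnbr : ∀ v : {v // v ∈ vs S}, ∃ w, A.Adj v w := by
    intro v
    have hv := v.2
    simp only [vs, mem_filter, mem_univ, true_and] at hv
    obtain ⟨e, he, hve⟩ := hv
    obtain ⟨w, rfl⟩ := Sym2.mem_iff_exists.1 hve
    exact ⟨⟨w, hmem w v.1 (by rw [Sym2.eq_swap]; exact he)⟩, he⟩
  -- pointwise bound
  have hpt : ∀ ω : EdgeSlot n → Bool, (((graphOf ω).copyCount A : ℕ) : ℝ) ≤
      ∑ D' ∈ orb (Gam n) D, (if ∀ t ∈ D', ω t = true then (1 : ℝ) else 0) := by
    intro ω
    rw [← Finset.sum_filter, Finset.sum_const, nsmul_eq_mul, mul_one]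
    refine Nat.cast_le.2 ?_
    rw [copyCount_eq_card_image_copyToSubgraph]
    refine Finset.card_le_card_of_injOn
      (fun G' : (graphOf ω).Subgraph => univ.filter (fun z : EdgeSlot n => z.1 ∈ G'.edgeSet)) ?_ ?_
    · intro G' hG'
      simp only [coe_image, Set.mem_image, coe_univ, Set.mem_univ, true_and] at hG'
      obtain ⟨f, rfl⟩ := hG'
      rw [Finset.mem_coe, mem_filter, mem_orb]
      refine ⟨?_, ?_⟩
      · obtain ⟨γ, hγ⟩ := Equiv.Perm.exists_extending_pair
          (fun v : {v // v ∈ vs S} => φ v.1) (fun v => f v)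
          (fun a b h => Subtype.ext (φ.injective h)) f.injective
        refine ⟨slotPerm γ, ⟨γ, rfl⟩, ?_⟩
        ext z
        simp only [mem_image, mem_filter, mem_univ, true_and]
        have hed : z.1 ∈ (Subgraph.map f.toHom ⊤ : (graphOf ω).Subgraph).edgeSet ↔
            ∃ x y : {v // v ∈ vs S}, s(x.1, y.1) ∈ S ∧ s(f x, f y) = z.1 := by
          rw [Subgraph.edgeSet_map]
          simp only [Set.mem_image, Subgraph.edgeSet_top]
          constructor
          · rintro ⟨e, he, hez⟩
            induction e with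
            | _ x y => exact ⟨x, y, he, hez⟩
          · rintro ⟨x, y, hxy, hz⟩
            exact ⟨s(x, y), hxy, hz⟩
        show _ ↔ z.1 ∈ (Subgraph.map f.toHom ⊤ : (graphOf ω).Subgraph).edgeSet
        rw [hed]
        constructor
        · rintro ⟨d, hd, rfl⟩
          rw [hDS, mem_slots] at hd
          obtain ⟨e, he, hed⟩ := hd
          induction e with
          | _ a b =>
            refine ⟨⟨a, hmem a b he⟩, ⟨b, hmem b a (by rw [Sym2.eq_swap]; exact he)⟩, he, ?_⟩
            rw [slotPerm_val, ← hed, Sym2.map_mk, Sym2.map_mk]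
            rw [← hγ, ← hγ]
        · rintro ⟨x, y, hxy, hz⟩
          have hnd : ¬ (s(φ x.1, φ y.1)).IsDiag := by
            rw [Sym2.mk_isDiag_iff]
            intro h
            exact (hadj _ _ hxy).ne (φ.injective h)
          refine ⟨⟨s(φ x.1, φ y.1), hnd⟩, ?_, ?_⟩
          · rw [hDS, mem_slots]
            exact ⟨s(x.1, y.1), hxy, rfl⟩
          · apply Subtype.ext
            rw [slotPerm_val, Sym2.map_mk, hγ, hγ]
            exact hz
      · intro t ht
        simp only [mem_filter, mem_univ, true_and] at ht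
        have h1 : t.1 ∈ (graphOf ω).edgeSet := Subgraph.edgeSet_subset _ ht
        obtain ⟨t, ht0⟩ := t
        induction t with
        | _ a b =>
          rw [mem_edgeSet, graphOf_adj] at h1
          obtain ⟨_, h2⟩ := h1
          exact h2
    · intro G1 h1 G2 h2 h12
      simp only [coe_image, Set.mem_image, coe_univ, Set.mem_univ, true_and] at h1 h2
      have hadj12 : ∀ a b, G1.Adj a b ↔ G2.Adj a b := by
        intro a b
        by_cases hd : (s(a, b)).IsDiag
        · rw [Sym2.mk_isDiag_iff] at hd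
          subst hd
          exact ⟨fun h => absurd rfl (G1.adj_sub h).ne, fun h => absurd rfl (G2.adj_sub h).ne⟩
        · have := Finset.ext_iff.1 h12 ⟨s(a, b), hd⟩
          simpa using this
      have hv : ∀ G' : (graphOf ω).Subgraph, (∃ f : Copy A (graphOf ω), f.toSubgraph = G') →
          ∀ v, v ∈ G'.verts ↔ ∃ w, G'.Adj v w := by
        rintro _ ⟨f, rfl⟩ v
        constructor
        · rintro ⟨x, _, rfl⟩
          obtain ⟨w, hw⟩ := hnbr x
          exact ⟨f w, x, w, hw, rfl, rfl⟩
        · rintro ⟨w, hw⟩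
          exact Subgraph.edge_vert _ hw
      ext v w
      · rw [hv G1 h1, hv G2 h2]
        simp only [hadj12]
      · exact hadj12 v w
  have hw : ∀ ω : EdgeSlot n → Bool, 0 ≤ Crest.FinProb.bernoulliWeight p ω := by
    intro ω
    unfold Crest.FinProb.bernoulliWeight
    apply Finset.prod_nonneg
    intro i _
    split_ifs <;> linarith
  refine (hE F).trans ?_
  unfold gnpExpect
  calc ∑ ω : EdgeSlot n → Bool, Crest.FinProb.bernoulliWeight p ω *
          ((graphOf ω).copyCount F.coe : ℝ)
      ≤ ∑ ω : EdgeSlot n → Bool, Crest.FinProb.bernoulliWeight p ω *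
        ∑ D' ∈ orb (Gam n) D, (if ∀ t ∈ D', ω t = true then (1 : ℝ) else 0) := by
        refine Finset.sum_le_sum fun ω _ => ?_
        rw [hFA]
        exact mul_le_mul_of_nonneg_left (hpt ω) (hw ω)
    _ = ∑ D' ∈ orb (Gam n) D, p ^ D'.card := by
        simp only [Finset.mul_sum]
        rw [Finset.sum_comm]
        refine Finset.sum_congr rfl fun D' _ => ?_
        exact sum_weight_all p D'
    _ = _ := by
        rw [Finset.sum_congr rfl (g := fun _ => p ^ D.card)]
        · rw [Finset.sum_const, nsmul_eq_mul]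
        · intro D' hD'
          rw [card_of_mem_orb _ hD']

end Crest.Agent.SK
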