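import Mathlib
import Crest.Prelude.Def_RandomGraph
import Crest.Agent.SK.Bridge2
import Crest.Agent.SK.Spread

/-!
S0076 from the orbit spread bound.
-/

set_option autoImplicit false
set_option linter.unusedSectionVars false

open Finset SimpleGraph Crest.CombinatoricsR.RandomGraph
open scoped Classical

namespace Crest.Agent.SK

open Crest.Agent.KK

variable {W : Type} [Fintype W] [DecidableEq W]

theorem weight_eq_wt {ι : Type*} [Fintype ι] [DecidableEq ι] (p : ℝ) (A : Finset ι) :
    Crest.FinProb.bernoulliWeight p (fun i => decide (i ∈ A)) = wt p A := by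
  unfold Crest.FinProb.bernoulliWeight wt
  simp only [decide_eq_true_eq]
  rw [Finset.prod_ite, Finset.prod_const, Finset.prod_const]
  congr 2
  · congr 1
    ext x; simp
  · rw [← Finset.card_compl]
    congr 1
    ext x; simp

theorem gnpProb_ge {n : ℕ} (p : ℝ) (hp0 : 0 ≤ p) (hp1 : p ≤ 1) (E : Set (SimpleGraph (Fin n)))
    (f : Finset (EdgeSlot n) → ℝ)
    (hf : ∀ A, f A ≤ 1) (hf0 : ∀ A, graphOf (fun i => decide (i ∈ A)) ∉ E → f A ≤ 0) :
    ∑ A : Finset (EdgeSlot n), wt p A * f A ≤ gnpProb n p E := by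
  unfold gnpProb Crest.FinProb.bernoulliProb
  rw [Finset.sum_filter]
  have e : (∑ ω : EdgeSlot n → Bool, if ω ∈ {ω : EdgeSlot n → Bool | graphOf ω ∈ E} then
      Crest.FinProb.bernoulliWeight p ω else 0) =
      ∑ A : Finset (EdgeSlot n), (if graphOf (fun i => decide (i ∈ A)) ∈ E then wt p A else 0) := by
    symm
    refine Finset.sum_bij' (fun A _ => (fun i => decide (i ∈ A))) (fun ω _ => univ.filter (fun i => ω i = true))
      (fun _ _ => mem_univ _) (fun _ _ => mem_univ _) ?_ ?_ ?_
    · intro A _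
      ext x; simp
    · intro ω _
      funext i
      simp
    · intro A _
      rw [weight_eq_wt]
      rfl
  rw [e]
  refine Finset.sum_le_sum fun A _ => ?_
  split_ifs with h
  · calc wt p A * f A ≤ wt p A * 1 := mul_le_mul_of_nonneg_left (hf A) (wt_nonneg hp0 hp1 A)
      _ = wt p A := mul_one _
  · exact mul_nonpos_of_nonneg_of_nonpos (wt_nonneg hp0 hp1 A) (hf0 A h)

theorem contained_of_hit {n : ℕ} (H : SimpleGraph W) [DecidableRel H.Adj] (φ : W ↪ Fin n)
    (S : Finset (EdgeSlot n)) (hS : S ∈ orb (Gam n) (slots φ H.edgeFinset))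
    (A : Finset (EdgeSlot n)) (hA : S ⊆ A) :
    H.IsContained (graphOf (fun i => decide (i ∈ A))) := by
  obtain ⟨σ, ⟨γ, rfl⟩, rfl⟩ := (mem_orb _).1 hS
  refine ⟨⟨⟨fun w => γ (φ w), ?_⟩, ?_⟩⟩
  · intro a b hab
    rw [graphOf_adj]
    have hnd : ¬ (s(φ a, φ b)).IsDiag := by
      rw [Sym2.mk_isDiag_iff]
      intro h
      exact hab.ne (φ.injective h)
    have hnd' : ¬ (s(γ (φ a), γ (φ b))).IsDiag := by
      rw [Sym2.mk_isDiag_iff]
      intro h
      exact hab.ne (φ.injective (γ.injective h))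
    refine ⟨hnd', ?_⟩
    rw [decide_eq_true_eq]
    apply hA
    rw [mem_image]
    refine ⟨⟨s(φ a, φ b), hnd⟩, ?_, ?_⟩
    · rw [mem_slots]
      exact ⟨s(a, b), by rw [mem_edgeFinset]; exact hab, rfl⟩
    · apply Subtype.ext
      rw [slotPerm_val, Sym2.map_mk]
  · intro a b h
    exact φ.injective (γ.injective h)

theorem final (n : ℕ) (H : SimpleGraph W) [DecidableRel H.Adj] (hW : Fintype.card W ≤ n)
    (hH : 1 ≤ H.edgeFinset.card) (p : ℝ) (hp0 : 0 ≤ p) (hp1 : p ≤ 1)
    (hE : ∀ F : H.Subgraph, (1 : ℝ) / 2 ≤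
      gnpExpect n p (fun G => (G.copyCount F.coe : ℝ)))
    (hspread : ∀ (H0 : Finset (EdgeSlot n)),
      (∀ D ⊆ H0, D.Nonempty → 1 / 2 ≤ ((orb (Gam n) D).card : ℝ) * p ^ D.card) →
      ∀ T : Finset (EdgeSlot n), T ⊆ H0 →
      (((orb (Gam n) T).filter (fun T' => T' ⊆ H0)).card : ℝ)
        ≤ (2 ^ 50 * p) ^ T.card * ((orb (Gam n) T).card : ℝ)) :
    (1 : ℝ) / 2 ≤ gnpProb n
      (min 1 (2048 * Real.exp 50 * p * (1 + Real.logb 2 (H.edgeFinset.card : ℝ))))
      {G | H.IsContained G} := by
  obtain ⟨φ⟩ : Nonempty (W ↪ Fin n) := by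
    apply Function.Embedding.nonempty_of_card_le
    simpa using hW
  set H0 := slots φ H.edgeFinset with hH0
  have hcard : H0.card = H.edgeFinset.card := by
    apply slots_card φ φ.injective
    intro e he
    rw [mem_edgeFinset] at he
    exact H.not_isDiag_of_mem_edgeSet he
  have hlog0 : 0 ≤ Real.logb 2 (H.edgeFinset.card : ℝ) := by
    apply Real.logb_nonneg (by norm_num)
    exact_mod_cast hH
  have hexp : (2 : ℝ) ^ 50 ≤ Real.exp 50 := by
    have h1 : (2 : ℝ) ≤ Real.exp 1 := by
      have := Real.add_one_le_exp (1 : ℝ)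
      linarith
    have h2 : Real.exp 50 = Real.exp 1 ^ 50 := by
      rw [← Real.exp_nat_mul]; norm_num
    rw [h2]
    exact pow_le_pow_left₀ (by norm_num) h1 50
  set pp := 2048 * Real.exp 50 * p * (1 + Real.logb 2 (H.edgeFinset.card : ℝ)) with hpp
  have hpp0 : 0 ≤ pp := by
    have := Real.exp_pos 50
    positivity
  by_cases hbig : 1 ≤ pp
  · -- density one
    rw [min_eq_left hbig]
    have h1 := gnpProb_ge (n := n) 1 (by norm_num) le_rfl {G | H.IsContained G}
      (fun A => if A = univ then 1 else 0) (fun A => by split_ifs <;> norm_num)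
      (fun A hA => by
        split_ifs with h
        · exfalso
          apply hA
          subst h
          exact contained_of_hit H φ H0 (self_mem_orb _ _) univ (subset_univ _)
        · exact le_rfl)
    refine le_trans ?_ h1
    simp only [mul_ite, mul_one, mul_zero, Finset.sum_ite_eq', mem_univ, if_true]
    unfold wt
    simp
    norm_num
  · push Not at hbig
    rw [min_eq_right hbig.le]
    have hsp := spread_family (Gam n) H0 (2 ^ 50 * p) (by positivity)
      (hspread H0 (fun D hD _ => orb_of_expect n H p hp0 hp1 hE φ D hD))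
    let ι := {S // S ∈ orb (Gam n) H0}
    have : Nonempty ι := ⟨⟨H0, self_mem_orb _ _⟩⟩
    have h2 := spread_half (X := EdgeSlot n) (ι := ι) (fun i => i.1) H0.card
      (fun i => (card_of_mem_orb _ i.2).le) (2 ^ 50 * p) pp (by positivity) hbig.le ?_ ?_
    · refine h2.trans (gnpProb_ge pp hpp0 hbig.le _ _ ?_ ?_)
      · intro A
        unfold hit
        split_ifs <;> norm_num
      · intro A hA
        unfold hit
        rw [if_neg]
        rintro ⟨j, _, hj⟩
        exact hA (contained_of_hit H φ j.1 j.2 A hj)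
    · rw [hcard]
      have hl : (Nat.log 2 H.edgeFinset.card : ℝ) ≤ Real.logb 2 (H.edgeFinset.card : ℝ) := by
        exact Real.natLog_le_logb _ _
      rw [hpp]
      have h3 : 16 * (2 ^ 50 * p) ≤ 2048 * Real.exp 50 * p := by nlinarith
      have h4 : 0 ≤ 16 * (2 ^ 50 * p) := by positivity
      have h5 : (0 : ℝ) ≤ 1 + (Nat.log 2 H.edgeFinset.card : ℝ) := by positivity
      calc 16 * (2 ^ 50 * p) * (1 + (Nat.log 2 H.edgeFinset.card : ℝ))
          ≤ 2048 * Real.exp 50 * p * (1 + (Nat.log 2 H.edgeFinset.card : ℝ)) :=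
            mul_le_mul_of_nonneg_right h3 h5
        _ ≤ _ := mul_le_mul_of_nonneg_left (by linarith) (h4.trans h3)
    · intro K
      have h6 := hsp K
      have h7 : (univ.filter (fun i : ι => K ⊆ i.1)).card =
          ((orb (Gam n) H0).filter (fun S => K ⊆ S)).card := by
        rw [← Finset.card_map (Function.Embedding.subtype (fun S => S ∈ orb (Gam n) H0))]
        congr 1
        ext S
        simp only [mem_map, mem_filter, mem_univ, true_and, Function.Embedding.coe_subtype]
        constructor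
        · rintro ⟨i, hi, rfl⟩; exact ⟨i.2, hi⟩
        · rintro ⟨h1, h2⟩; exact ⟨⟨S, h1⟩, h2, rfl⟩
      rw [h7]
      have h8 : (Fintype.card ι : ℝ) = ((orb (Gam n) H0).card : ℝ) := by
        simp [ι]
      rw [h8]
      exact h6

end Crest.Agent.SK
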